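import Vale.Agent.P254.All

namespace Vale.Agent.Results.P254.OrliczBalls

open MeasureTheory

/-- The volume of `K` as a real number. -/
noncomputable def vol {n : ℕ} (K : Set (Fin n → ℝ)) : ℝ := (volume K).toReal

/-- The centroid of `K`. -/
noncomputable def centroid {n : ℕ} (K : Set (Fin n → ℝ)) : Fin n → ℝ :=
  fun i => (vol K)⁻¹ * ∫ x in K, x i

/-- The covariance matrix of `K`. -/
noncomputable def covMatrix {n : ℕ} (K : Set (Fin n → ℝ)) : Matrix (Fin n) (Fin n) ℝ :=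
  fun i j => (vol K)⁻¹ * ∫ x in K, (x i - centroid K i) * (x j - centroid K j)

/-- The isotropic constant of `K`. -/
noncomputable def isoConst {n : ℕ} (K : Set (Fin n → ℝ)) : ℝ :=
  ((covMatrix K).det / vol K ^ 2) ^ (1 / (2 * (n : ℝ)))

/-- The convex hull of the origin and the standard basis vectors, an `n`-simplex. -/
def simplex (n : ℕ) : Set (Fin n → ℝ) :=
  convexHull ℝ (insert 0 (Set.range fun i : Fin n => (Pi.single i (1 : ℝ) : Fin n → ℝ)))

/-- The data of a generalised Orlicz ball: for each coordinate a bound `a i > 0` and a continuous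
convex function `φ i ≥ 0` on `[0, a i]` with `φ i 0 = 0`. -/
structure IsOrlicz {n : ℕ} (a : Fin n → ℝ) (φ : Fin n → ℝ → ℝ) : Prop where
  pos : ∀ i, 0 < a i
  zero : ∀ i, φ i 0 = 0
  nonneg : ∀ i, ∀ t ∈ Set.Icc 0 (a i), 0 ≤ φ i t
  convex : ∀ i, ConvexOn ℝ (Set.Icc 0 (a i)) (φ i)
  cont : ∀ i, ContinuousOn (φ i) (Set.Icc 0 (a i))

/-- The generalised Orlicz ball: `|x i| ≤ a i` for all `i` and `∑ φ i |x i| ≤ 1`. -/
def ball {n : ℕ} (a : Fin n → ℝ) (φ : Fin n → ℝ → ℝ) : Set (Fin n → ℝ) :=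
  {x | (∀ i, |x i| ≤ a i) ∧ ∑ i, φ i |x i| ≤ 1}

/-- A convex body: convex, compact, with nonempty interior. -/
def IsConvexBody {n : ℕ} (K : Set (Fin n → ℝ)) : Prop :=
  Convex ℝ K ∧ IsCompact K ∧ (interior K).Nonempty

/-- Every generalised Orlicz ball in dimension `n ≥ 2` is a convex body whose isotropic constant is
at most `√((n + 1) / (8 (n + 2)))` and smaller than that of the `n`-simplex, whose value is
`(n!² / ((n + 1)^(n + 1) (n + 2)^n))^(1 / (2 n))`; in particular this holds for the unit balls of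
the spaces `ℓ_p^n`, `1 ≤ p < ∞`. -/
theorem result (n : ℕ) (hn : 2 ≤ n) :
    (∀ (a : Fin n → ℝ) (φ : Fin n → ℝ → ℝ), IsOrlicz a φ →
      IsConvexBody (ball a φ) ∧
      isoConst (ball a φ) ≤ √(((n : ℝ) + 1) / (8 * ((n : ℝ) + 2))) ∧
      isoConst (ball a φ) < isoConst (simplex n)) ∧
    (∀ p : ℝ, 1 ≤ p → isoConst {x : Fin n → ℝ | ∑ i, |x i| ^ p ≤ 1} < isoConst (simplex n)) ∧
    isoConst (simplex n) = ((n.factorial : ℝ) ^ 2 /
      (((n : ℝ) + 1) ^ (n + 1) * ((n : ℝ) + 2) ^ n)) ^ (1 / (2 * (n : ℝ))) := by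
  refine ⟨?_, ?_, ?_⟩
  · intro a φ h
    have h' : Vale.P254.IsOrlicz a φ := ⟨h.pos, h.zero, h.nonneg, h.convex, h.cont⟩
    obtain ⟨h1, h2⟩ := Vale.P254.All.main n hn a φ h'
    exact ⟨Vale.P254.All.body h', h1, h2⟩
  · intro p hp
    have h1 := (Vale.P254.All.main n hn _ _ (Vale.P254.BODY.lp_orlicz n p hp)).2
    rw [← Vale.P254.BODY.lp_eq n p hp] at h1
    exact h1
  · have h1 := Vale.P254.All.simp n (by omega)
    show Vale.P254.isoConst (Vale.P254.simplex n) = _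
    rw [Vale.P254.isoConst, h1]

end Vale.Agent.Results.P254.OrliczBalls
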