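import Vale.Agent.P254.BOX

namespace Vale.Agent.Results.P254.TwoConvexSharp

open MeasureTheory

/-- The volume of `K` as a real number. -/
noncomputable def vol {n : ℕ} (K : Set (Fin n → ℝ)) : ℝ := (volume K).toReal

/-- The centroid of `K`. -/
noncomputable def centroid {n : ℕ} (K : Set (Fin n → ℝ)) : Fin n → ℝ :=
  fun i => (vol K)⁻¹ * ∫ x in K, x i

/-- The covariance matrix of `K`. -/
noncomputable def covMatrix {n : ℕ} (K : Set (Fin n → ℝ)) : Matrix (Fin n) (Fin n) ℝ :=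
  fun i j => (vol K)⁻¹ * ∫ x in K, (x i - centroid K i) * (x j - centroid K j)

/-- The isotropic constant of `K`. -/
noncomputable def isoConst {n : ℕ} (K : Set (Fin n → ℝ)) : ℝ :=
  ((covMatrix K).det / vol K ^ 2) ^ (1 / (2 * (n : ℝ)))

/-- The convex hull of the origin and the standard basis vectors, an `n`-simplex. -/
def simplex (n : ℕ) : Set (Fin n → ℝ) :=
  convexHull ℝ (insert 0 (Set.range fun i : Fin n => (Pi.single i (1 : ℝ) : Fin n → ℝ)))

/-- The data of a generalised Orlicz ball: for each coordinate a bound `a i > 0` and a continuous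
convex function `φ i ≥ 0` on `[0, a i]` with `φ i 0 = 0`. -/
structure IsOrlicz {n : ℕ} (a : Fin n → ℝ) (φ : Fin n → ℝ → ℝ) : Prop where
  pos : ∀ i, 0 < a i
  zero : ∀ i, φ i 0 = 0
  nonneg : ∀ i, ∀ t ∈ Set.Icc 0 (a i), 0 ≤ φ i t
  convex : ∀ i, ConvexOn ℝ (Set.Icc 0 (a i)) (φ i)
  cont : ∀ i, ContinuousOn (φ i) (Set.Icc 0 (a i))

/-- The generalised Orlicz ball: `|x i| ≤ a i` for all `i` and `∑ φ i |x i| ≤ 1`. -/
def ball {n : ℕ} (a : Fin n → ℝ) (φ : Fin n → ℝ → ℝ) : Set (Fin n → ℝ) :=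
  {x | (∀ i, |x i| ≤ a i) ∧ ∑ i, φ i |x i| ≤ 1}

/-- If moreover all `s ↦ φ i (√s)` are convex, the isotropic constant of the ball is at most that
of a box, which is `1 / √12`, and this is smaller than the value of the simplex for `n ≥ 2`. -/
theorem result (n : ℕ) (hn : 1 ≤ n) :
    (∀ (a : Fin n → ℝ) (φ : Fin n → ℝ → ℝ), IsOrlicz a φ →
      (∀ i, ConvexOn ℝ (Set.Icc 0 (a i ^ 2)) (fun s => φ i (√s))) →
      isoConst (ball a φ) ≤ √(1 / 12)) ∧
    (∀ p : ℝ, 2 ≤ p → isoConst {x : Fin n → ℝ | ∑ i, |x i| ^ p ≤ 1} ≤ √(1 / 12)) ∧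
    (∀ a : Fin n → ℝ, (∀ i, 0 < a i) → isoConst {x : Fin n → ℝ | ∀ i, |x i| ≤ a i} = √(1 / 12)) ∧
    (2 ≤ n → √(1 / 12) < isoConst (simplex n)) := by
  refine ⟨?_, ?_, ?_, ?_⟩
  · intro a φ h h2
    have h' : Vale.P254.IsOrlicz a φ := ⟨h.pos, h.zero, h.nonneg, h.convex, h.cont⟩
    exact Vale.P254.TWO.bound n hn a φ h' h2
  · intro p hp
    exact Vale.P254.TWO.lp n hn p hp
  · intro a ha
    exact Vale.P254.BOX.box n hn a ha
  · intro h2
    have ha : ∀ i : Fin n, (0 : ℝ) < (fun _ => (1 : ℝ)) i := fun _ => one_pos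
    have h1 := Vale.P254.BOX.box n hn (fun _ => (1 : ℝ)) ha
    have h3 := (Vale.P254.All.main n h2 _ _ (Vale.P254.BOX.zero_orlicz (fun _ => (1 : ℝ)) ha)).2
    rw [← Vale.P254.BOX.box_eq, h1] at h3
    exact h3

end Vale.Agent.Results.P254.TwoConvexSharp
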